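/-
Functionals of slope one on the sphere (helper52).

A functional `θ` of norm at most one has slope one up to `η` on the unit sphere if from every unit
vector `x` one reaches the top of `θ` at the cost of the height difference: there is a unit vector `u`
with `θ u ≥ 1 - η` and `‖x - u‖ ≤ 1 - θ x + η`.

If `f` is a surjective sphere isometry then `|θ (x₁ + x₂ + x₃)| ≤ 1803 η` for every triple of unit
vectors with `f x₁ + f x₂ + f x₃ = 0`.

Proof.  (1) Unit vectors `u₁, u₂, u₃` with `θ (u i) ≥ 1 - η` have images with an almost common norming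
functional.  Let `m` be the normalised mean.  If `a` is a unit vector in `Y` almost cofacial with `f m`,
then it is almost cofacial with each `f (u i)`: for `f b = - a` a norming functional of `m - b` almost
norms `m`, hence almost norms each `u i`.  Starting from `a₀ = f m`, normalise `a₀ + f u₁`, then
`a₁ + f u₂`, then `a₂ + f u₃`: a norming functional of the last vector almost norms all `f (u i)`.
(2) `3 - 1800 η ≤ Σ ξ (f (u i) - f (x i)) ≤ Σ ‖u i - x i‖ ≤ 3 - θ (Σ x i) + 3 η`; by oddness the same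
holds for `- x i`.
-/
import Vale.Agent.Lib.P084.Defs
import Vale.Agent.Lib.P084.RNP.Top

namespace Vale.Agent.Lib.P084.FaceDist

open Vale.Agent.Lib.P084.UC Vale.Agent.Lib.P084.Inf Vale.Agent.Lib.P084.RNP
open Metric

universe u v

variable {X : Type u} {Y : Type v} [NormedAddCommGroup X] [NormedSpace ℝ X] [NormedAddCommGroup Y]
  [NormedSpace ℝ Y]

/-- The functionals of slope one separate the points of `X`: for each `v ≠ 0` there is `c > 0` such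
that for each `ε > 0` some functional of slope one up to `ε` has `|θ v| ≥ c`. -/
def HasSlopeOneFunctionals (X : Type u) [NormedAddCommGroup X] [NormedSpace ℝ X] : Prop :=
  ∀ v : X, v ≠ 0 → ∃ c : ℝ, 0 < c ∧ ∀ ε : ℝ, 0 < ε → ∃ θ : X →L[ℝ] ℝ, IsSlopeOne ε θ ∧ c ≤ |θ v|

theorem app_le {Z : Type*} [NormedAddCommGroup Z] [NormedSpace ℝ Z] {φ : Z →L[ℝ] ℝ} (hφ : ‖φ‖ ≤ 1)
    (v : Z) : φ v ≤ ‖v‖ := by
  have h1 : |φ v| ≤ ‖φ‖ * ‖v‖ := by simpa using φ.le_opNorm v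
  have h2 : ‖φ‖ * ‖v‖ ≤ 1 * ‖v‖ := mul_le_mul_of_nonneg_right hφ (norm_nonneg v)
  have h3 := le_abs_self (φ v)
  linarith

/-- A norming functional of a nonzero vector. -/
theorem exists_norming {Z : Type*} [NormedAddCommGroup Z] [NormedSpace ℝ Z] {v : Z} (hv : v ≠ 0) :
    ∃ φ : Z →L[ℝ] ℝ, ‖φ‖ ≤ 1 ∧ φ v = ‖v‖ := by
  obtain ⟨φ, hφ, hφv⟩ := exists_dual_vector ℝ v (norm_ne_zero_iff.mpr hv)
  exact ⟨φ, hφ.le, by simpa using hφv⟩

/-- The normalised mean of three almost cofacial unit vectors, with the approximate star property. -/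
theorem star_approx {f : X → Y} (hf : IsSphereIso f) {m w u₁ u₂ u₃ : X} {η : ℝ} (hm : ‖m‖ = 1)
    (hu1 : ‖u₁‖ = 1) (hu2 : ‖u₂‖ = 1) (hu3 : ‖u₃‖ = 1)
    (hw : w = (1 / 3 : ℝ) • u₁ + (1 / 3 : ℝ) • u₂ + (1 / 3 : ℝ) • u₃) (hmw : ‖m - w‖ ≤ η)
    {a : Y} (ha : ‖a‖ = 1) {e : ℝ} (he1 : e ≤ 1) (hc : 2 - e ≤ ‖f m + a‖) :
    2 - 4 * e - 3 * η ≤ ‖f u₁ + a‖ ∧ 2 - 4 * e - 3 * η ≤ ‖f u₂ + a‖ ∧
      2 - 4 * e - 3 * η ≤ ‖f u₃ + a‖ := by
  obtain ⟨b, hb, hfb⟩ := hf.surj (-a) (by rw [norm_neg]; exact ha)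
  have h1 : 2 - e ≤ ‖m - b‖ := by
    rw [← hf.iso m b hm hb, hfb, sub_neg_eq_add]; exact hc
  have hne : m - b ≠ 0 := by
    intro h; rw [h, norm_zero] at h1; linarith
  obtain ⟨ζ, hζ, hζv⟩ := exists_norming hne
  rw [map_sub] at hζv
  have hm' := app_le hζ m
  have hb' := app_le hζ (-b)
  rw [hm] at hm'
  rw [norm_neg, hb, map_neg] at hb'
  have hmw' := app_le hζ (m - w)
  rw [map_sub] at hmw'
  have hζw : ζ w = (1 / 3 : ℝ) * ζ u₁ + (1 / 3 : ℝ) * ζ u₂ + (1 / 3 : ℝ) * ζ u₃ := by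
    rw [hw, map_add, map_add, map_smul, map_smul, map_smul]
    simp only [smul_eq_mul]
  have a1 := app_le hζ u₁
  have a2 := app_le hζ u₂
  have a3 := app_le hζ u₃
  rw [hu1] at a1
  rw [hu2] at a2
  rw [hu3] at a3
  have key : ∀ u : X, ‖u‖ = 1 → 2 - 4 * e - 3 * η ≤ ζ u + 1 - e → 2 - 4 * e - 3 * η ≤ ‖f u + a‖ := by
    intro u hu hle
    have h3 : ‖f u + a‖ = ‖u - b‖ := by
      rw [← hf.iso u b hu hb, hfb, sub_neg_eq_add]
    rw [h3]
    have := app_le hζ (u - b)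
    rw [map_sub] at this
    linarith
  refine ⟨key _ hu1 ?_, key _ hu2 ?_, key _ hu3 ?_⟩ <;> linarith

/-- The normalised sum of two almost cofacial unit vectors. -/
theorem mid_approx {p q : Y} (hp : ‖p‖ = 1) (hq : ‖q‖ = 1) {t : ℝ} (ht1 : t ≤ 1)
    (hpq : 2 - t ≤ ‖p + q‖) :
    ∃ a : Y, ‖a‖ = 1 ∧ ∀ ξ : Y →L[ℝ] ℝ, ‖ξ‖ ≤ 1 → ∀ s : ℝ, 0 ≤ s → 1 - s ≤ ξ a →
      1 - t - 2 * s ≤ ξ p ∧ 1 - t - 2 * s ≤ ξ q := by
  have hr0 : 0 < ‖p + q‖ := by linarith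
  have hr2 : ‖p + q‖ ≤ 2 := by
    calc ‖p + q‖ ≤ ‖p‖ + ‖q‖ := norm_add_le _ _
      _ = 2 := by rw [hp, hq]; norm_num
  refine ⟨(1 / ‖p + q‖ : ℝ) • (p + q), ?_, ?_⟩
  · rw [norm_smul, Real.norm_of_nonneg (by positivity)]
    field_simp
  · intro ξ hξ s hs h
    rw [map_smul, map_add, smul_eq_mul] at h
    have h1 : ‖p + q‖ * (1 - s) ≤ ξ p + ξ q := by
      have := mul_le_mul_of_nonneg_left h hr0.le
      have e : ‖p + q‖ * (1 / ‖p + q‖ * (ξ p + ξ q)) = ξ p + ξ q := by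
        field_simp
      rwa [e] at this
    have h2 : 2 - t - 2 * s ≤ ‖p + q‖ * (1 - s) := by
      nlinarith
    have a1 := app_le hξ p
    have a2 := app_le hξ q
    rw [hp] at a1
    rw [hq] at a2
    constructor <;> linarith

/-- If a norming functional of a unit vector `a` almost norms `c`, then `a`, `c` are almost cofacial. -/
theorem cofacial_of_norming {a c : Y} {ξ : Y →L[ℝ] ℝ} (hξ : ‖ξ‖ ≤ 1) (h1 : ξ a = 1) {e : ℝ}
    (h2 : 1 - e ≤ ξ c) : 2 - e ≤ ‖c + a‖ := by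
  have := app_le hξ (c + a)
  rw [map_add, h1] at this
  linarith

/-- A norming functional of a unit vector. -/
theorem exists_unit_norming {a : Y} (ha : ‖a‖ = 1) : ∃ ξ : Y →L[ℝ] ℝ, ‖ξ‖ ≤ 1 ∧ ξ a = 1 := by
  have hne : a ≠ 0 := by intro h0; rw [h0, norm_zero] at ha; norm_num at ha
  obtain ⟨ξ, hξ, hξa⟩ := exists_norming hne
  rw [ha] at hξa
  exact ⟨ξ, hξ, hξa⟩

/-- Unit vectors almost at the top of a functional of the dual ball have images with an almost common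
norming functional. -/
theorem exists_almost_common_norming {f : X → Y} (hf : IsSphereIso f) {θ : X →L[ℝ] ℝ} (hθ : ‖θ‖ ≤ 1)
    {η : ℝ} (hη0 : 0 < η) (hη : η ≤ 1 / 1000) {u₁ u₂ u₃ : X} (hu1 : ‖u₁‖ = 1) (hu2 : ‖u₂‖ = 1)
    (hu3 : ‖u₃‖ = 1) (h1 : 1 - η ≤ θ u₁) (h2 : 1 - η ≤ θ u₂) (h3 : 1 - η ≤ θ u₃) :
    ∃ ξ : Y →L[ℝ] ℝ, ‖ξ‖ ≤ 1 ∧ 1 - 600 * η ≤ ξ (f u₁) ∧ 1 - 600 * η ≤ ξ (f u₂) ∧
      1 - 600 * η ≤ ξ (f u₃) := by
  -- the mean and its normalisation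
  set w : X := (1 / 3 : ℝ) • u₁ + (1 / 3 : ℝ) • u₂ + (1 / 3 : ℝ) • u₃ with hw
  have hθw : 1 - η ≤ θ w := by
    rw [hw, map_add, map_add, map_smul, map_smul, map_smul]
    simp only [smul_eq_mul]
    linarith
  have hwlow : 1 - η ≤ ‖w‖ := le_trans hθw (app_le hθ w)
  have hwhigh : ‖w‖ ≤ 1 := by
    calc ‖w‖ ≤ ‖(1 / 3 : ℝ) • u₁ + (1 / 3 : ℝ) • u₂‖ + ‖(1 / 3 : ℝ) • u₃‖ := norm_add_le _ _
      _ ≤ ‖(1 / 3 : ℝ) • u₁‖ + ‖(1 / 3 : ℝ) • u₂‖ + ‖(1 / 3 : ℝ) • u₃‖ := by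
          gcongr
          exact norm_add_le _ _
      _ = 1 := by
          rw [norm_smul, norm_smul, norm_smul, hu1, hu2, hu3]
          norm_num
  have hwpos : 0 < ‖w‖ := by linarith
  set m : X := (1 / ‖w‖ : ℝ) • w with hmdef
  have hm : ‖m‖ = 1 := by
    rw [hmdef, norm_smul, Real.norm_of_nonneg (by positivity)]
    field_simp
  have hmw : ‖m - w‖ ≤ η := by
    have e : m - w = ((1 / ‖w‖ : ℝ) - 1) • w := by rw [hmdef, sub_smul, one_smul]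
    rw [e, norm_smul, Real.norm_eq_abs]
    have hnn : 0 ≤ (1 / ‖w‖ : ℝ) - 1 := by
      rw [sub_nonneg, le_div_iff₀ hwpos]
      linarith
    rw [abs_of_nonneg hnn]
    have : ((1 / ‖w‖ : ℝ) - 1) * ‖w‖ = 1 - ‖w‖ := by field_simp
    rw [this]
    linarith
  have hf1 := hf.norm_eq _ hu1
  have hf2 := hf.norm_eq _ hu2
  have hf3 := hf.norm_eq _ hu3
  have hfm := hf.norm_eq _ hm
  have star := fun {a : Y} (ha : ‖a‖ = 1) {e : ℝ} (he1 : e ≤ 1) (hc : 2 - e ≤ ‖f m + a‖) =>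
    star_approx hf hm hu1 hu2 hu3 hw hmw ha he1 hc
  -- step zero
  have c00 : 2 - 0 ≤ ‖f m + f m‖ := by
    rw [← two_smul ℝ (f m), norm_smul, hfm]; norm_num
  have c1 : 2 - 3 * η ≤ ‖f u₁ + f m‖ := by
    have := (star hfm (by norm_num : (0 : ℝ) ≤ 1) c00).1
    linarith
  -- step one
  obtain ⟨a₁, ha₁, hn₁⟩ := mid_approx hf1 hfm (by linarith : 3 * η ≤ 1) c1
  have c01 : 2 - 3 * η ≤ ‖f m + a₁‖ := by
    obtain ⟨ξ, hξ, hξa⟩ := exists_unit_norming ha₁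
    have := (hn₁ ξ hξ 0 le_rfl (by rw [hξa]; norm_num)).2
    exact cofacial_of_norming hξ hξa (by linarith)
  have c2 : 2 - 15 * η ≤ ‖f u₂ + a₁‖ := by
    have := (star ha₁ (by linarith : 3 * η ≤ 1) c01).2.1
    linarith
  -- step two
  obtain ⟨a₂, ha₂, hn₂⟩ := mid_approx hf2 ha₁ (by linarith : 15 * η ≤ 1) c2
  have c02 : 2 - 33 * η ≤ ‖f m + a₂‖ := by
    obtain ⟨ξ, hξ, hξa⟩ := exists_unit_norming ha₂
    have h₁ := (hn₂ ξ hξ 0 le_rfl (by rw [hξa]; norm_num)).2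
    have h₂ := (hn₁ ξ hξ (15 * η) (by linarith) (by linarith)).2
    exact cofacial_of_norming hξ hξa (by linarith)
  have c3 : 2 - 135 * η ≤ ‖f u₃ + a₂‖ := by
    have := (star ha₂ (by linarith : 33 * η ≤ 1) c02).2.2
    linarith
  -- step three
  obtain ⟨a₃, ha₃, hn₃⟩ := mid_approx hf3 ha₂ (by linarith : 135 * η ≤ 1) c3
  obtain ⟨ξ, hξ, hξa⟩ := exists_unit_norming ha₃
  obtain ⟨x3, x2'⟩ := hn₃ ξ hξ 0 le_rfl (by rw [hξa]; norm_num)
  obtain ⟨x2, x1'⟩ := hn₂ ξ hξ (135 * η) (by linarith) (by linarith)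
  obtain ⟨x1, -⟩ := hn₁ ξ hξ (285 * η) (by linarith) (by linarith)
  exact ⟨ξ, hξ, by linarith, by linarith, by linarith⟩

/-- A functional of slope one up to `η` is almost nonpositive on the defect of a triple with zero image
sum. -/
theorem defect_le {f : X → Y} (hf : IsSphereIso f) {η : ℝ} (hη0 : 0 < η) (hη1 : η ≤ 1 / 1000)
    {θ : X →L[ℝ] ℝ} (hθ : IsSlopeOne η θ) {x₁ x₂ x₃ : X}
    (hx1 : ‖x₁‖ = 1) (hx2 : ‖x₂‖ = 1) (hx3 : ‖x₃‖ = 1) (hsum : f x₁ + f x₂ + f x₃ = 0) :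
    θ (x₁ + x₂ + x₃) ≤ 1803 * η := by
  obtain ⟨hθ1, hd⟩ := hθ
  obtain ⟨u₁, hu1, t1, b1⟩ := hd x₁ hx1
  obtain ⟨u₂, hu2, t2, b2⟩ := hd x₂ hx2
  obtain ⟨u₃, hu3, t3, b3⟩ := hd x₃ hx3
  obtain ⟨ξ, hξ, e1, e2, e3⟩ := exists_almost_common_norming hf hθ1 hη0 hη1 hu1 hu2 hu3 t1 t2 t3
  have a1 := app_le hξ (f u₁ - f x₁)
  have a2 := app_le hξ (f u₂ - f x₂)
  have a3 := app_le hξ (f u₃ - f x₃)
  rw [hf.iso _ _ hu1 hx1, norm_sub_rev, map_sub] at a1
  rw [hf.iso _ _ hu2 hx2, norm_sub_rev, map_sub] at a2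
  rw [hf.iso _ _ hu3 hx3, norm_sub_rev, map_sub] at a3
  have hs : ξ (f x₁) + ξ (f x₂) + ξ (f x₃) = 0 := by
    rw [← map_add, ← map_add, hsum, map_zero]
  rw [map_add, map_add]
  linarith

/-- A functional of slope one up to `η` almost kills the defect of a triple with zero image sum. -/
theorem defect_abs_le {f : X → Y} (hf : IsSphereIso f) {η : ℝ} (hη0 : 0 < η) (hη1 : η ≤ 1 / 1000)
    {θ : X →L[ℝ] ℝ} (hθ : IsSlopeOne η θ)
    {x₁ x₂ x₃ : X} (hx1 : ‖x₁‖ = 1) (hx2 : ‖x₂‖ = 1) (hx3 : ‖x₃‖ = 1)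
    (hsum : f x₁ + f x₂ + f x₃ = 0) : |θ (x₁ + x₂ + x₃)| ≤ 1803 * η := by
  refine abs_le.2 ⟨?_, defect_le hf hη0 hη1 hθ hx1 hx2 hx3 hsum⟩
  have hn1 : ‖-x₁‖ = 1 := by rw [norm_neg]; exact hx1
  have hn2 : ‖-x₂‖ = 1 := by rw [norm_neg]; exact hx2
  have hn3 : ‖-x₃‖ = 1 := by rw [norm_neg]; exact hx3
  have hs : f (-x₁) + f (-x₂) + f (-x₃) = 0 := by
    rw [odd_of_isSphereIso hf hx1, odd_of_isSphereIso hf hx2, odd_of_isSphereIso hf hx3]
    have : -f x₁ + -f x₂ + -f x₃ = -(f x₁ + f x₂ + f x₃) := by abel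
    rw [this, hsum, neg_zero]
  have := defect_le hf hη0 hη1 hθ hn1 hn2 hn3 hs
  rw [map_add, map_add, map_neg, map_neg, map_neg] at this
  rw [map_add, map_add]
  linarith

/-- Additivity on unit triples. -/
theorem additive_of_hasSlopeOne (hD : HasSlopeOneFunctionals X) {f : X → Y} (hf : IsSphereIso f)
    (x z : X) (hx : ‖x‖ = 1) (hz : ‖z‖ = 1) (hxz : ‖x + z‖ = 1) : f (x + z) = f x + f z := by
  have hnz : ‖-z‖ = 1 := by rw [norm_neg]; exact hz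
  have hodd := odd_of_isSphereIso hf hz
  have h1 : ‖-f x - f z‖ = 1 := by
    have h2 : -f x - f z = -(f x - f (-z)) := by rw [hodd]; abel
    rw [h2, norm_neg, hf.iso _ _ hx hnz, sub_neg_eq_add]
    exact hxz
  obtain ⟨c, hc, hfc⟩ := hf.surj _ h1
  have hsum : f x + f z + f c = 0 := by rw [hfc]; abel
  have hzero : x + z + c = 0 := by
    by_contra hne
    obtain ⟨k, hk, hall⟩ := hD _ hne
    set η : ℝ := min (k / 4000) (1 / 1000) with hηdef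
    have hη0 : 0 < η := lt_min (by positivity) (by norm_num)
    have hη1 : η ≤ 1 / 1000 := min_le_right _ _
    have hηk : η ≤ k / 4000 := min_le_left _ _
    obtain ⟨θ, hθ, hθk⟩ := hall η hη0
    have := defect_abs_le hf hη0 hη1 hθ hx hz hc hsum
    linarith
  have hcv : c = -(x + z) := by
    rw [eq_neg_iff_add_eq_zero, add_comm]; exact hzero
  have hodd2 := odd_of_isSphereIso hf hxz
  rw [← hcv, hfc] at hodd2
  have : f (x + z) = -(-f x - f z) := by rw [hodd2, neg_neg]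
  rw [this]
  abel

/-- Extension, slope one functionals in the source. -/
theorem extends_of_hasSlopeOne_source (hrank : (3 : Cardinal) ≤ Module.rank ℝ X)
    (hD : HasSlopeOneFunctionals X) (f : sphere (0 : X) 1 → sphere (0 : Y) 1) (hf : Isometry f)
    (hs : Function.Surjective f) : ∃ T : X ≃ₗᵢ[ℝ] Y, ∀ x : sphere (0 : X) 1, T x = f x := by
  by_cases hX : FiniteDimensional ℝ X
  · exact (main hrank f hf hs).1 (Or.inl hX)
  obtain ⟨g, hg, hgf⟩ := exists_ambient f hf hs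
  obtain ⟨T, hT⟩ := exists_linear_of_additive (four_le_rank_of_infinite hX) hg
    (fun a ha => odd_of_isSphereIso hg ha) (additive_of_hasSlopeOne hD hg)
  refine ⟨T, fun x => ?_⟩
  rw [hT x (by simpa using x.2), hgf]

/-- Extension, slope one functionals in the target. -/
theorem extends_of_hasSlopeOne_target (hrank : (3 : Cardinal) ≤ Module.rank ℝ X)
    (hD : HasSlopeOneFunctionals Y) (f : sphere (0 : X) 1 → sphere (0 : Y) 1) (hf : Isometry f)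
    (hs : Function.Surjective f) : ∃ T : X ≃ₗᵢ[ℝ] Y, ∀ x : sphere (0 : X) 1, T x = f x := by
  by_cases hX : FiniteDimensional ℝ X
  · exact (main hrank f hf hs).1 (Or.inl hX)
  obtain ⟨g, hg, hgf⟩ := exists_ambient f hf hs
  have hY := not_finiteDimensional_target hg hX
  obtain ⟨h, hh, hhs, htr⟩ := exists_inverse f hf hs
  exact htr (extends_of_hasSlopeOne_source
    (le_trans (by exact_mod_cast (by norm_num : (3 : ℕ) ≤ 4)) (four_le_rank_of_infinite hY))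
    hD h hh hhs)

end Vale.Agent.Lib.P084.FaceDist
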