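/-
Functionals of slope one combined with dentability (helper52).

Let `N` be a subspace of `X` containing all vectors that are not separated from `0` by functionals of
slope one.  All defects of triples with zero image sum lie in `N`, so the dyadic tree produced by a
nonzero defect lies on a face of the sphere and in one coset of `N`.  So if all subsets of faces lying
in one coset of `N` are dentable, there is no nonzero defect: the map extends linearly.

`N = ⊥`: functionals of slope one separate the points.  `N = ⊤`: all subsets of all faces are dentable.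
-/
import Vale.Agent.Lib.P084.Defs
import Vale.Agent.Lib.P084.FaceDist.Slope
import Vale.Agent.Lib.P084.RNP.FaceTree

namespace Vale.Agent.Lib.P084.FaceDist

open Vale.Agent.Lib.P084.UC Vale.Agent.Lib.P084.Inf Vale.Agent.Lib.P084.RNP
open Metric
open scoped Pointwise

universe u v

variable {X : Type u} {Y : Type v} [NormedAddCommGroup X] [NormedSpace ℝ X] [NormedAddCommGroup Y]
  [NormedSpace ℝ Y]

/-- Every defect of a triple with zero image sum lies in `N`. -/
theorem defect_mem {N : Submodule ℝ X} (hS : SlopeSeparatesMod N) {f : X → Y} (hf : IsSphereIso f)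
    {x₁ x₂ x₃ : X} (hx1 : ‖x₁‖ = 1) (hx2 : ‖x₂‖ = 1) (hx3 : ‖x₃‖ = 1)
    (hsum : f x₁ + f x₂ + f x₃ = 0) : x₁ + x₂ + x₃ ∈ N := by
  by_contra hne
  obtain ⟨k, hk, hall⟩ := hS _ hne
  set η : ℝ := min (k / 4000) (1 / 1000) with hηdef
  have hη0 : 0 < η := lt_min (by positivity) (by norm_num)
  have hη1 : η ≤ 1 / 1000 := min_le_right _ _
  have hηk : η ≤ k / 4000 := min_le_left _ _
  obtain ⟨θ, hθ, hθk⟩ := hall η hη0
  have := defect_abs_le hf hη0 hη1 hθ hx1 hx2 hx3 hsum
  linarith

/-- A nonzero defect is impossible. -/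
theorem defect_eq_zero_mod {N : Submodule ℝ X} (hS : SlopeSeparatesMod N) (hD : FacesDentableMod N)
    {f : X → Y} {g : Y → X} (hf : IsSphereIso f) (hodd : ∀ x : X, ‖x‖ = 1 → f (-x) = - f x)
    (hg : ∀ z : Y, ‖z‖ = 1 → ‖g z‖ = 1 ∧ f (g z) = z) (P : TPair X) : defect f g P = 0 := by
  by_contra h0
  have hne := chord_ne_zero hf hodd hg P
  have hn0 : ‖P.p - P.q‖ ≠ 0 := norm_ne_zero_iff.mpr hne
  obtain ⟨χ, hχ1, hχ2⟩ := exists_dual_vector ℝ (P.p - P.q) hn0
  have hχP : χ (P.p - P.q) = ‖P.p - P.q‖ := by exact_mod_cast hχ2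
  set c : ℝ := ‖P.p - P.q‖⁻¹ with hc
  have hc0 : 0 ≤ c := by positivity
  have hcp : 0 < c := by positivity
  set a : List Bool → X :=
    fun s => c • ((node hf hodd hg P s).p - (node hf hodd hg P s).q) with ha
  set δ : ℝ := ‖defect f g P‖ / ‖P.p - P.q‖ with hδdef
  have hδ : 0 < δ := div_pos (norm_pos_iff.mpr h0) (norm_pos_iff.mpr hne)
  have hprop : ∀ s, ‖a s‖ = 1 ∧ χ (a s) = 1 ∧ a (true :: s) + a (false :: s) = (2 : ℝ) • a s ∧
      ‖a (true :: s) - a s‖ = δ ∧ a (true :: s) - a s = c • defect f g (node hf hodd hg P s) := by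
    intro s
    obtain ⟨i1, i2, i3⟩ := node_invariant hf hodd hg P χ hχ1.le hχP s
    have hT : node hf hodd hg P (true :: s) = childT hf hodd hg (node hf hodd hg P s) := rfl
    have hF : node hf hodd hg P (false :: s) = childF hf hodd hg (node hf hodd hg P s) := rfl
    have hinc : a (true :: s) - a s = c • defect f g (node hf hodd hg P s) := by
      show c • ((node hf hodd hg P (true :: s)).p - (node hf hodd hg P (true :: s)).q) -
        c • ((node hf hodd hg P s).p - (node hf hodd hg P s).q) = _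
      rw [hT, ← smul_sub]
      congr 1
      simp only [childT]
      abel
    refine ⟨?_, ?_, ?_, ?_, hinc⟩
    · show ‖c • ((node hf hodd hg P s).p - (node hf hodd hg P s).q)‖ = 1
      rw [norm_smul, i1, Real.norm_of_nonneg hc0, hc, inv_mul_cancel₀ hn0]
    · show χ (c • ((node hf hodd hg P s).p - (node hf hodd hg P s).q)) = 1
      rw [map_smul, smul_eq_mul, i2, hc, inv_mul_cancel₀ hn0]
    · show c • ((node hf hodd hg P (true :: s)).p - (node hf hodd hg P (true :: s)).q) +
        c • ((node hf hodd hg P (false :: s)).p - (node hf hodd hg P (false :: s)).q) =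
        (2 : ℝ) • (c • ((node hf hodd hg P s).p - (node hf hodd hg P s).q))
      rw [hT, hF]
      simp only [childT, childF]
      module
    · rw [hinc, norm_smul, i3, Real.norm_of_nonneg hc0, hc, hδdef, div_eq_inv_mul]
  have hdefN : ∀ Q : TPair X, defect f g Q ∈ N := by
    intro Q
    obtain ⟨h1, h2⟩ := third_spec hf hodd hg Q
    refine defect_mem hS hf Q.hp Q.hq h1 ?_
    rw [h2]
    abel
  have hfalse : ∀ s, a (false :: s) - a s = -(a (true :: s) - a s) := by
    intro s
    obtain ⟨-, -, h3, -, -⟩ := hprop s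
    have e2 : a (false :: s) = (2 : ℝ) • a s - a (true :: s) := by
      rw [← h3]; abel
    rw [e2, two_smul]
    abel
  have hroot : ∀ s, a s - a [] ∈ N := by
    intro s
    induction s with
    | nil => simp
    | cons b s ih =>
      have hstep : a (true :: s) - a s ∈ N := by
        rw [(hprop s).2.2.2.2]
        exact N.smul_mem c (hdefN _)
      cases b with
      | true =>
        have e : a (true :: s) - a [] = (a (true :: s) - a s) + (a s - a []) := by abel
        rw [e]
        exact N.add_mem hstep ih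
      | false =>
        have e : a (false :: s) - a [] = -(a (true :: s) - a s) + (a s - a []) := by
          rw [← hfalse]
          abel
        rw [e]
        exact N.add_mem (N.neg_mem hstep) ih
  have hA : IsDentableSet (Set.range a) := by
    refine hD χ hχ1.le _ ?_ ⟨a [], ⟨[], rfl⟩⟩ ?_
    · rintro _ ⟨s, rfl⟩
      exact ⟨(hprop s).1, (hprop s).2.1⟩
    · rintro _ ⟨s, rfl⟩ _ ⟨t, rfl⟩
      have e : a s - a t = (a s - a []) - (a t - a []) := by abel
      rw [e]
      exact N.sub_mem (hroot s) (hroot t)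
  obtain ⟨_, ⟨s, rfl⟩, hna⟩ := hA δ hδ
  apply hna
  obtain ⟨-, -, h3, h4, -⟩ := hprop s
  have hmid : a s = (1 / 2 : ℝ) • a (true :: s) + (1 / 2 : ℝ) • a (false :: s) := by
    rw [← smul_add, h3, smul_smul]
    norm_num
  have h5 : ‖a (false :: s) - a s‖ = δ := by
    rw [hfalse, norm_neg, h4]
  apply subset_closure
  have hmem : ∀ t : List Bool, ‖a t - a s‖ = δ →
      a t ∈ convexHull ℝ (Set.range a \ ball (a s) δ) := fun t ht =>
    subset_convexHull ℝ _ ⟨⟨t, rfl⟩, by simp [dist_eq_norm, ht]⟩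
  have hc' := convex_convexHull ℝ (Set.range a \ ball (a s) δ)
    (hmem _ h4) (hmem _ h5) (by norm_num : (0 : ℝ) ≤ 1 / 2) (by norm_num : (0 : ℝ) ≤ 1 / 2)
    (by norm_num)
  rwa [← hmid] at hc'

/-- Additivity on unit triples. -/
theorem additive_of_mod {N : Submodule ℝ X} (hS : SlopeSeparatesMod N) (hD : FacesDentableMod N)
    {f : X → Y} (hf : IsSphereIso f) (x z : X) (hx : ‖x‖ = 1) (hz : ‖z‖ = 1) (hxz : ‖x + z‖ = 1) :
    f (x + z) = f x + f z := by
  have hodd : ∀ a : X, ‖a‖ = 1 → f (-a) = - f a := fun a ha => odd_of_isSphereIso hf ha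
  obtain ⟨g, hg⟩ := hf.exists_inv
  let P : TPair X := ⟨x, z, hx, hz, hxz⟩
  have h0 := defect_eq_zero_mod hS hD hf hodd hg P
  obtain ⟨-, h2⟩ := third_spec hf hodd hg P
  have e : third f g P = -(x + z) := by
    have e3 : x + z + third f g P = 0 := h0
    rw [eq_neg_iff_add_eq_zero, add_comm]
    exact e3
  have h3 : f (-(x + z)) = - f x - f z := by
    rw [← e]
    exact h2
  rw [hodd _ hxz] at h3
  have h4 : f (x + z) = -(- f x - f z) := by rw [← h3, neg_neg]
  rw [h4]
  abel

/-- Extension, the hypothesis on the source. -/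
theorem extends_of_mod_source (hrank : (3 : Cardinal) ≤ Module.rank ℝ X) {N : Submodule ℝ X}
    (hS : SlopeSeparatesMod N) (hD : FacesDentableMod N)
    (f : sphere (0 : X) 1 → sphere (0 : Y) 1) (hf : Isometry f)
    (hs : Function.Surjective f) : ∃ T : X ≃ₗᵢ[ℝ] Y, ∀ x : sphere (0 : X) 1, T x = f x := by
  by_cases hX : FiniteDimensional ℝ X
  · exact (main hrank f hf hs).1 (Or.inl hX)
  obtain ⟨g, hg, hgf⟩ := exists_ambient f hf hs
  obtain ⟨T, hT⟩ := exists_linear_of_additive (four_le_rank_of_infinite hX) hg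
    (fun a ha => odd_of_isSphereIso hg ha) (additive_of_mod hS hD hg)
  refine ⟨T, fun x => ?_⟩
  rw [hT x (by simpa using x.2), hgf]

/-- Extension, the hypothesis on the target. -/
theorem extends_of_mod_target (hrank : (3 : Cardinal) ≤ Module.rank ℝ X) {N : Submodule ℝ Y}
    (hS : SlopeSeparatesMod N) (hD : FacesDentableMod N)
    (f : sphere (0 : X) 1 → sphere (0 : Y) 1) (hf : Isometry f)
    (hs : Function.Surjective f) : ∃ T : X ≃ₗᵢ[ℝ] Y, ∀ x : sphere (0 : X) 1, T x = f x := by
  by_cases hX : FiniteDimensional ℝ X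
  · exact (main hrank f hf hs).1 (Or.inl hX)
  obtain ⟨g, hg, hgf⟩ := exists_ambient f hf hs
  have hY := not_finiteDimensional_target hg hX
  obtain ⟨h, hh, hhs, htr⟩ := exists_inverse f hf hs
  exact htr (extends_of_mod_source
    (le_trans (by exact_mod_cast (by norm_num : (3 : ℕ) ≤ 4)) (four_le_rank_of_infinite hY))
    hS hD h hh hhs)

/-- A separating family of functionals of slope one: the subspace `⊥`. -/
theorem slopeSeparatesMod_bot (h : HasSlopeOneFunctionals X) :
    SlopeSeparatesMod (⊥ : Submodule ℝ X) := fun v hv => h v (by simpa using hv)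

/-- The trivial case of dentability: the subspace `⊥`. -/
theorem facesDentableMod_bot : FacesDentableMod (⊥ : Submodule ℝ X) := by
  intro χ _ A _ hne hN ε hε
  obtain ⟨a, ha⟩ := hne
  refine ⟨a, ha, ?_⟩
  have hempty : A \ ball a ε = ∅ := by
    ext b
    simp only [Set.mem_sdiff, Set.mem_empty_iff_false, iff_false, not_and, not_not]
    intro hb
    have : b = a := by simpa [sub_eq_zero] using hN b hb a ha
    rw [this]
    exact mem_ball_self hε
  rw [hempty]
  simp

/-- Dentability passes to translates. -/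
theorem IsDentableSet.of_vadd {A : Set X} {a : X} (h : IsDentableSet (a +ᵥ A)) : IsDentableSet A := by
  intro ε hε
  obtain ⟨y, ⟨x, hx, rfl⟩, hna⟩ := h ε hε
  refine ⟨x, hx, fun hmem => hna ?_⟩
  have e : (a +ᵥ A) \ ball (a +ᵥ x) ε = a +ᵥ (A \ ball x ε) := by
    ext z
    simp only [Set.mem_sdiff, Set.mem_vadd_set, mem_ball, dist_eq_norm, vadd_eq_add]
    constructor
    · rintro ⟨⟨w, hw, rfl⟩, h2⟩
      refine ⟨w, ⟨hw, ?_⟩, rfl⟩
      have e2 : a + w - (a + x) = w - x := by abel
      rwa [e2] at h2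
    · rintro ⟨w, ⟨hw, h2⟩, rfl⟩
      refine ⟨⟨w, hw, rfl⟩, ?_⟩
      have e2 : a + w - (a + x) = w - x := by abel
      rwa [e2]
  rw [e, convexHull_vadd, closure_vadd]
  exact ⟨x, hmem, rfl⟩

/-- If all bounded nonempty subsets of `N` are dentable (for a closed subspace of a Banach space: `N` has
the Radon-Nikodym property) then `FacesDentableMod N` holds. -/
theorem facesDentableMod_of_bounded {N : Submodule ℝ X}
    (h : ∀ A : Set X, A ⊆ N → A.Nonempty → Bornology.IsBounded A → IsDentableSet A) :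
    FacesDentableMod N := by
  intro χ _ A hA hne hN
  obtain ⟨a₀, ha₀⟩ := hne
  refine IsDentableSet.of_vadd (a := -a₀) (h _ ?_ ⟨-a₀ +ᵥ a₀, ⟨a₀, ha₀, rfl⟩⟩ ?_)
  · rintro _ ⟨b, hb, rfl⟩
    have e : -a₀ +ᵥ b = b - a₀ := by
      rw [vadd_eq_add]
      abel
    show -a₀ +ᵥ b ∈ N
    rw [e]
    exact hN b hb a₀ ha₀
  · refine Bornology.IsBounded.vadd ?_ _
    refine (Metric.isBounded_sphere (x := (0 : X)) (r := 1)).subset fun x hx => ?_
    simpa using (hA hx).1

end Vale.Agent.Lib.P084.FaceDist
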