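/-
Subspaces of `C(K)` with bump functions (helper52).

Let `E` be a linear subspace of `C(K)` with the sup norm, not necessarily closed.  If `E` contains almost
bumps at a point `k`, then the evaluation at `k` has slope one on the unit sphere of `E`.
-/
import Vale.Agent.Lib.P084.FaceDist.Rel
import Mathlib.Topology.ContinuousMap.Compact

namespace Vale.Agent.Lib.P084.FaceDist

open Topology

variable {K : Type*} [TopologicalSpace K] [CompactSpace K]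

/-- Evaluation at `k` on a linear subspace of `C(K)`. -/
noncomputable def evalOn (E : Submodule ℝ C(K, ℝ)) (k : K) : E →L[ℝ] ℝ :=
  (ContinuousMap.evalCLM ℝ k : C(K, ℝ) →L[ℝ] ℝ).comp E.subtypeL

/-- `E` has almost bumps at `k`: for each neighbourhood `V` of `k` and each `η > 0` there is `ψ` in `E`
with `ψ k = 1`, `- η ≤ ψ ≤ 1`, and `ψ ≤ η` off `V`. -/
def HasBumpsAt (E : Submodule ℝ C(K, ℝ)) (k : K) : Prop :=
  ∀ V ∈ 𝓝 k, ∀ η : ℝ, 0 < η →
    ∃ ψ ∈ E, ψ k = 1 ∧ (∀ t, -η ≤ ψ t ∧ ψ t ≤ 1) ∧ ∀ t, t ∉ V → ψ t ≤ η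

/-- Evaluation at a point with almost bumps has slope one. -/
theorem isSlopeOne_evalOn {E : Submodule ℝ C(K, ℝ)} {k : K} (hb : HasBumpsAt E k) {ε : ℝ}
    (hε : 0 < ε) : IsSlopeOne (X := E) ε (evalOn E k) := by
  refine ⟨ContinuousLinearMap.opNorm_le_bound _ zero_le_one fun g => ?_, fun x hx => ?_⟩
  · rw [one_mul]
    exact (g : C(K, ℝ)).norm_coe_le_norm k
  have hx' : ‖(x : C(K, ℝ))‖ = 1 := hx
  set y : C(K, ℝ) := (x : C(K, ℝ)) with hy
  have hyt : ∀ t, y t ≤ 1 ∧ -1 ≤ y t := by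
    intro t
    have h := y.norm_coe_le_norm t
    rw [hx', Real.norm_eq_abs, abs_le] at h
    exact ⟨h.2, h.1⟩
  set η : ℝ := min (ε / 8) 1 with hηdef
  have hη0 : 0 < η := lt_min (by positivity) one_pos
  have hηε : η ≤ ε / 8 := min_le_left _ _
  have hη1 : η ≤ 1 := min_le_right _ _
  set c : ℝ := 1 - y k with hc
  have hc0 : 0 ≤ c := by have := (hyt k).1; linarith
  have hc2 : c ≤ 2 := by have := (hyt k).2; linarith
  have hV : {t | y t < y k + η} ∈ 𝓝 k := by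
    refine (isOpen_lt y.continuous continuous_const).mem_nhds ?_
    show y k < y k + η
    linarith
  obtain ⟨ψ, hψE, hψk, hψb, hψV⟩ := hb _ hV η hη0
  set u₀ : C(K, ℝ) := y + c • ψ with hu₀
  have hu₀E : u₀ ∈ E := E.add_mem x.2 (E.smul_mem c hψE)
  have hu₀t : ∀ t, u₀ t = y t + c * ψ t := fun t => rfl
  have hu₀k : u₀ k = 1 := by
    rw [hu₀t, hψk, hc]
    ring
  have hlow : 1 ≤ ‖u₀‖ := by
    have h := u₀.norm_coe_le_norm k
    rw [hu₀k] at h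
    simpa using h
  have hhigh : ‖u₀‖ ≤ 1 + 2 * η := by
    refine (ContinuousMap.norm_le _ (by positivity)).2 fun t => ?_
    rw [hu₀t, Real.norm_eq_abs, abs_le]
    obtain ⟨h1, h2⟩ := hψb t
    obtain ⟨h3, h4⟩ := hyt t
    have hcmul : -(2 * η) ≤ c * ψ t := by nlinarith
    constructor
    · linarith
    · by_cases htV : y t < y k + η
      · have : c * ψ t ≤ c * 1 := mul_le_mul_of_nonneg_left h2 hc0
        have e : y k = 1 - c := by rw [hc]; ring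
        linarith
      · have h5 := hψV t htV
        have : c * ψ t ≤ c * η := mul_le_mul_of_nonneg_left h5 hc0
        nlinarith
  have hψn : ‖ψ‖ ≤ 1 := by
    refine (ContinuousMap.norm_le _ zero_le_one).2 fun t => ?_
    rw [Real.norm_eq_abs, abs_le]
    obtain ⟨h1, h2⟩ := hψb t
    constructor <;> linarith
  have hpos : 0 < ‖u₀‖ := by linarith
  have hE : ‖u₀‖⁻¹ • u₀ ∈ E := E.smul_mem _ hu₀E
  have hunit : ‖‖u₀‖⁻¹ • u₀‖ = 1 := by
    rw [norm_smul, norm_inv, norm_norm, inv_mul_cancel₀ hpos.ne']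
  refine ⟨⟨‖u₀‖⁻¹ • u₀, hE⟩, hunit, ?_, ?_⟩
  · show 1 - ε ≤ (‖u₀‖⁻¹ • u₀) k
    rw [ContinuousMap.smul_apply, hu₀k, smul_eq_mul, mul_one]
    have h1 : (1 - ε) * ‖u₀‖ ≤ 1 := by nlinarith
    rw [← one_div, le_div_iff₀ hpos]
    exact h1
  · show ‖y - ‖u₀‖⁻¹ • u₀‖ ≤ 1 - y k + ε
    have e : y - ‖u₀‖⁻¹ • u₀ = (y - u₀) + (u₀ - ‖u₀‖⁻¹ • u₀) := by abel
    have h1 : ‖y - u₀‖ ≤ c := by
      have e1 : y - u₀ = -(c • ψ) := by rw [hu₀]; abel
      rw [e1, norm_neg, norm_smul, Real.norm_of_nonneg hc0]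
      nlinarith
    have h2 : ‖u₀ - ‖u₀‖⁻¹ • u₀‖ ≤ 2 * η := by
      have e2 : u₀ - ‖u₀‖⁻¹ • u₀ = (1 - ‖u₀‖⁻¹) • u₀ := by
        rw [sub_smul, one_smul]
      rw [e2, norm_smul]
      have hi : ‖u₀‖⁻¹ ≤ 1 := inv_le_one_of_one_le₀ hlow
      rw [Real.norm_of_nonneg (by linarith)]
      have e3 : (1 - ‖u₀‖⁻¹) * ‖u₀‖ = ‖u₀‖ - 1 := by
        field_simp
      rw [e3]
      linarith
    rw [e]
    calc ‖(y - u₀) + (u₀ - ‖u₀‖⁻¹ • u₀)‖ ≤ ‖y - u₀‖ + ‖u₀ - ‖u₀‖⁻¹ • u₀‖ := norm_add_le _ _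
      _ ≤ c + 2 * η := by linarith
      _ ≤ 1 - y k + ε := by rw [hc]; linarith

/-- Almost bumps at a set of points that separates the points of `E` modulo `N`. -/
theorem slopeSeparatesMod_of_bumps {E : Submodule ℝ C(K, ℝ)} (N : Submodule ℝ E) (D : Set K)
    (hD : ∀ k ∈ D, HasBumpsAt E k)
    (hsep : ∀ v : E, v ∉ N → ∃ k ∈ D, (v : C(K, ℝ)) k ≠ 0) : SlopeSeparatesMod (X := E) N := by
  intro v hv
  obtain ⟨k, hk, hvk⟩ := hsep v hv
  refine ⟨|(v : C(K, ℝ)) k|, abs_pos.2 hvk, fun ε hε => ⟨evalOn E k, isSlopeOne_evalOn (hD k hk) hε, ?_⟩⟩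
  exact le_refl _

/-- Almost bumps at a set of points that separates the points of `E`. -/
theorem hasSlopeOneFunctionals_of_bumps {E : Submodule ℝ C(K, ℝ)} (D : Set K)
    (hD : ∀ k ∈ D, HasBumpsAt E k)
    (hsep : ∀ v : E, v ≠ 0 → ∃ k ∈ D, (v : C(K, ℝ)) k ≠ 0) : HasSlopeOneFunctionals E := by
  intro v hv
  obtain ⟨k, hk, hvk⟩ := hsep v hv
  exact ⟨|(v : C(K, ℝ)) k|, abs_pos.2 hvk, fun ε hε => ⟨evalOn E k, isSlopeOne_evalOn (hD k hk) hε,
    le_refl _⟩⟩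

end Vale.Agent.Lib.P084.FaceDist
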