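/-
Point evaluations on `C(K)` have slope one (helper52).
-/
import Vale.Agent.Lib.P084.FaceDist.Slope
import Mathlib.Topology.ContinuousMap.Compact

namespace Vale.Agent.Lib.P084.FaceDist

variable {K : Type*} [TopologicalSpace K] [CompactSpace K]

/-- Point evaluations have slope one. -/
theorem isSlopeOne_eval (k : K) {ε : ℝ} (hε : 0 < ε) :
    IsSlopeOne ε (ContinuousMap.evalCLM ℝ k : C(K, ℝ) →L[ℝ] ℝ) := by
  have hunit : ∀ u : C(K, ℝ), u k = 1 → 1 ≤ ‖u‖ := by
    intro u hu
    have h := u.norm_coe_le_norm k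
    rw [hu] at h
    simpa using h
  refine ⟨ContinuousLinearMap.opNorm_le_bound _ zero_le_one fun g => ?_, fun x hx => ?_⟩
  · rw [one_mul]
    exact g.norm_coe_le_norm k
  · set c : ℝ := 1 - x k with hc
    have hxt : ∀ t, x t ≤ 1 ∧ -1 ≤ x t := by
      intro t
      have h := x.norm_coe_le_norm t
      rw [hx, Real.norm_eq_abs, abs_le] at h
      exact ⟨h.2, h.1⟩
    have hc0 : 0 ≤ c := by have := (hxt k).1; linarith
    let u : C(K, ℝ) :=
      ⟨fun t => min 1 (x t + c), continuous_const.min (x.continuous.add continuous_const)⟩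
    have huapp : ∀ t, u t = min 1 (x t + c) := fun _ => rfl
    have huk : u k = 1 := by
      rw [huapp, hc]
      simp
    have hule : ‖u‖ ≤ 1 := by
      refine (ContinuousMap.norm_le _ zero_le_one).2 fun t => ?_
      rw [huapp, Real.norm_eq_abs, abs_le]
      have := (hxt t).2
      have := (hxt t).1
      constructor
      · exact le_min (by norm_num) (by linarith)
      · exact min_le_left _ _
    refine ⟨u, le_antisymm hule (hunit u huk), ?_, ?_⟩
    · have : (ContinuousMap.evalCLM ℝ k : C(K, ℝ) →L[ℝ] ℝ) u = u k := rfl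
      rw [this, huk]
      linarith
    · have hd : ‖x - u‖ ≤ c := by
        refine (ContinuousMap.norm_le _ hc0).2 fun t => ?_
        rw [ContinuousMap.sub_apply, huapp, Real.norm_eq_abs, abs_le]
        have h1 : min 1 (x t + c) ≤ x t + c := min_le_right _ _
        have h2 : x t ≤ min 1 (x t + c) := le_min (hxt t).1 (by linarith)
        constructor <;> linarith
      have : (ContinuousMap.evalCLM ℝ k : C(K, ℝ) →L[ℝ] ℝ) x = x k := rfl
      rw [this]
      linarith

/-- `C(K)` has a separating family of functionals of slope one, for every compact space `K`. -/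
theorem hasSlopeOneFunctionals_continuousMap : HasSlopeOneFunctionals C(K, ℝ) := by
  intro v hv
  have : ∃ k, v k ≠ 0 := by
    by_contra h
    exact hv (ContinuousMap.ext fun k => by_contra fun hk => h ⟨k, hk⟩)
  obtain ⟨k, hk⟩ := this
  refine ⟨|v k|, abs_pos.2 hk, fun ε hε => ⟨_, isSlopeOne_eval k hε, le_refl _⟩⟩

end Vale.Agent.Lib.P084.FaceDist
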